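import Mathlib
import Crest.Agent.Helper52.PP.Count
import Crest.Agent.Helper52.PP.Perm
import Crest.Agent.Helper52.S0076.DenseHost

/-!
# Rigidity leaves from the stabiliser bound (helper13; conditional package for row 55)

Conditional infrastructure for helper20's Theorems B / B' / C (`notes/s0076_helper20.md`), in the
language of helper52's `DenseHost.lean` (host `E₀ ⊆ EdgeSlot n`, stabiliser bound `hstab`):

* `rigid_of_stab` : if `A ⊆ E₀` and `(n)_{v(A)} p^{|A|} < 1`, then every permutation of `Fin n`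
  stabilising `A` fixes every vertex of `A`  (the sub-host `A` is RIGID; fact (X′) of the note).
* `rigid_induced_of_stab` : for a vertex set `X` with `|X| ≥ 2` and `n^{|X|} p^{e(X)} ≤ 1`
  (`e(X)` = number of host slots inside `X`, i.e. excess `x(H[X]) ≥ 0`), every permutation that
  maps `X` into `X` and the host slots inside `X` into host slots is the identity on `X`
  (the INDUCED sub-host on `X` is rigid, isolated vertices included).
* `half_le_pow_induced` : `1 ≤ 2 n^{|X|} p^{e(X)}` for every vertex set `X` (excess `≤ κ`).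

Nothing here proves a spread bound.
-/

set_option autoImplicit false
set_option linter.unusedSectionVars false
set_option linter.unusedVariables false

namespace Crest.Agent.Helper13.S0076

open Finset Crest.CombinatoricsR.RandomGraph Crest.Agent.Helper52.PP
open Crest.Agent.Helper52.S0076 (map_slotPerm_eq_of_forall_mem factorial_le_card_fix dens_of_stab)

/-- A permutation fixing every vertex of `A` stabilises `A`. -/
lemma map_slotPerm_eq_of_fix {n : ℕ} (τ : Equiv.Perm (Fin n)) (A : Finset (EdgeSlot n))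
    (h : ∀ x ∈ vset A, τ x = x) : A.map (slotPerm τ).toEmbedding = A := by
  apply map_slotPerm_eq_of_forall_mem
  intro s hs
  have hfix : slotPerm τ s = s := by
    apply Subtype.ext
    rw [slotPerm_val]
    obtain ⟨a, b, hab⟩ : ∃ a b : Fin n, s.1 = s(a, b) :=
      Sym2.ind (fun a b => ⟨a, b, rfl⟩) s.1
    have ha : a ∈ vset A :=
      (mem_vset A a).2 ⟨s, hs, by rw [hab]; exact Sym2.mem_mk_left a b⟩
    have hb : b ∈ vset A :=
      (mem_vset A b).2 ⟨s, hs, by rw [hab]; exact Sym2.mem_mk_right a b⟩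
    rw [hab, Sym2.map_mk, h a ha, h b hb]
  rw [hfix]
  exact hs

/-- A permutation stabilising `A` maps every slot of `A` into `A`. -/
lemma slotPerm_mem_of_map_eq {n : ℕ} (σ : Equiv.Perm (Fin n)) (A : Finset (EdgeSlot n))
    (h : A.map (slotPerm σ).toEmbedding = A) (s : EdgeSlot n) (hs : s ∈ A) :
    slotPerm σ s ∈ A := by
  have : slotPerm σ s ∈ A.map (slotPerm σ).toEmbedding :=
    Finset.mem_map_of_mem (slotPerm σ).toEmbedding hs
  rwa [h] at this

/-- **Rigidity from the stabiliser bound.**  If `A ⊆ E₀` and `(n)_{v(A)} p^{|A|} < 1`, every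
permutation stabilising `A` fixes every vertex of `A`. -/
theorem rigid_of_stab {n : ℕ} (E₀ : Finset (EdgeSlot n)) (p : ℝ) (hp0 : 0 ≤ p)
    (hstab : ∀ A ⊆ E₀, (((Finset.univ.filter (fun σ : Equiv.Perm (Fin n) =>
        A.map (slotPerm σ).toEmbedding = A)).card : ℕ) : ℝ)
          ≤ 2 * (n.factorial : ℝ) * p ^ A.card)
    (A : Finset (EdgeSlot n)) (hA : A ⊆ E₀)
    (hlt : (n.descFactorial (vset A).card : ℝ) * p ^ A.card < 1)
    (σ : Equiv.Perm (Fin n)) (hσ : A.map (slotPerm σ).toEmbedding = A) :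
    ∀ x ∈ vset A, σ x = x := by
  classical
  by_contra hcon
  push Not at hcon
  obtain ⟨x, hx, hσx⟩ := hcon
  set S := Finset.univ.filter (fun τ : Equiv.Perm (Fin n) =>
      A.map (slotPerm τ).toEmbedding = A) with hS
  set F := Finset.univ.filter (fun τ : Equiv.Perm (Fin n) => ∀ y ∈ vset A, τ y = y) with hF
  set F' := F.image (fun τ => σ * τ) with hF'
  have hV : (vset A).card ≤ n := by
    have := Finset.card_le_univ (vset A)
    rwa [Fintype.card_fin] at this
  have hFS : F ⊆ S := by
    intro τ hτ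
    rw [hF, Finset.mem_filter] at hτ
    rw [hS, Finset.mem_filter]
    exact ⟨Finset.mem_univ _, map_slotPerm_eq_of_fix τ A hτ.2⟩
  have hF'S : F' ⊆ S := by
    intro ρ hρ
    rw [hF', Finset.mem_image] at hρ
    obtain ⟨τ, hτ, rfl⟩ := hρ
    have hτS := hFS hτ
    rw [hS, Finset.mem_filter] at hτS ⊢
    refine ⟨Finset.mem_univ _, ?_⟩
    apply map_slotPerm_eq_of_forall_mem
    intro s hs
    rw [slotPerm_mul, Equiv.trans_apply]
    exact slotPerm_mem_of_map_eq σ A hσ _ (slotPerm_mem_of_map_eq τ A hτS.2 s hs)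
  have hdisj : Disjoint F F' := by
    rw [Finset.disjoint_left]
    intro ρ hρF hρF'
    rw [hF', Finset.mem_image] at hρF'
    obtain ⟨τ, hτ, rfl⟩ := hρF'
    rw [hF, Finset.mem_filter] at hτ hρF
    have h1 : (σ * τ) x = x := hρF.2 x hx
    rw [Equiv.Perm.mul_apply, hτ.2 x hx] at h1
    exact hσx h1
  have hcardF' : F'.card = F.card := by
    rw [hF']
    apply Finset.card_image_of_injective
    intro τ τ' h
    exact mul_left_cancel h
  have h1 : (n - (vset A).card).factorial ≤ F.card := factorial_le_card_fix (vset A)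
  have h2 : 2 * (n - (vset A).card).factorial ≤ S.card := by
    calc 2 * (n - (vset A).card).factorial ≤ F.card + F'.card := by rw [hcardF']; omega
      _ = (F ∪ F').card := (Finset.card_union_of_disjoint hdisj).symm
      _ ≤ S.card := Finset.card_le_card (Finset.union_subset hFS hF'S)
  have h3 := hstab A hA
  have hfac := Nat.factorial_mul_descFactorial hV
  have hpos : (0 : ℝ) < ((n - (vset A).card).factorial : ℝ) := by
    exact_mod_cast Nat.factorial_pos _
  have h4 : (2 : ℝ) * ((n - (vset A).card).factorial : ℝ) ≤ 2 * (n.factorial : ℝ) * p ^ A.card := by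
    refine le_trans ?_ h3
    exact_mod_cast h2
  rw [← hfac] at h4
  push_cast at h4
  have h5 : (2 : ℝ) * ((n - (vset A).card).factorial : ℝ)
      * ((n.descFactorial (vset A).card : ℝ) * p ^ A.card)
      < 2 * ((n - (vset A).card).factorial : ℝ) * 1 :=
    mul_lt_mul_of_pos_left hlt (by positivity)
  nlinarith [h4, h5]

open Classical in
/-- The host slots with both endpoints in the vertex set `X` (the induced sub-host on `X`). -/
noncomputable def inducedSlots {n : ℕ} (E₀ : Finset (EdgeSlot n)) (X : Finset (Fin n)) :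
    Finset (EdgeSlot n) :=
  E₀.filter (fun s => ∀ v, v ∈ s.1 → v ∈ X)

lemma inducedSlots_subset {n : ℕ} (E₀ : Finset (EdgeSlot n)) (X : Finset (Fin n)) :
    inducedSlots E₀ X ⊆ E₀ := by
  classical
  unfold inducedSlots
  exact Finset.filter_subset _ _

lemma mem_inducedSlots {n : ℕ} (E₀ : Finset (EdgeSlot n)) (X : Finset (Fin n)) (s : EdgeSlot n) :
    s ∈ inducedSlots E₀ X ↔ s ∈ E₀ ∧ ∀ v, v ∈ s.1 → v ∈ X := by
  classical
  unfold inducedSlots
  rw [Finset.mem_filter]

lemma vset_inducedSlots_subset {n : ℕ} (E₀ : Finset (EdgeSlot n)) (X : Finset (Fin n)) :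
    vset (inducedSlots E₀ X) ⊆ X := by
  intro v hv
  obtain ⟨s, hs, hvs⟩ := (mem_vset _ v).1 hv
  exact ((mem_inducedSlots E₀ X s).1 hs).2 v hvs

/-- **Excess at most `κ`**: `1 ≤ 2 n^{|X|} p^{e(X)}` for every vertex set `X`. -/
theorem half_le_pow_induced {n : ℕ} (E₀ : Finset (EdgeSlot n)) (p : ℝ) (hp0 : 0 ≤ p)
    (hstab : ∀ A ⊆ E₀, (((Finset.univ.filter (fun σ : Equiv.Perm (Fin n) =>
        A.map (slotPerm σ).toEmbedding = A)).card : ℕ) : ℝ)
          ≤ 2 * (n.factorial : ℝ) * p ^ A.card)
    (X : Finset (Fin n)) :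
    (1 : ℝ) ≤ 2 * (n : ℝ) ^ X.card * p ^ (inducedSlots E₀ X).card := by
  have h1 := dens_of_stab E₀ p hp0 hstab (inducedSlots E₀ X) (inducedSlots_subset E₀ X)
  have hpp : (0 : ℝ) ≤ p ^ (inducedSlots E₀ X).card := pow_nonneg hp0 _
  have hcard : (vset (inducedSlots E₀ X)).card ≤ X.card :=
    Finset.card_le_card (vset_inducedSlots_subset E₀ X)
  have hXn : X.card ≤ n := by
    have := Finset.card_le_univ X
    rwa [Fintype.card_fin] at this
  have h2N : n.descFactorial (vset (inducedSlots E₀ X)).card ≤ n ^ X.card := by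
    rcases Nat.eq_zero_or_pos n with hn | hn
    · have h0 : X.card = 0 := by omega
      have h0' : (vset (inducedSlots E₀ X)).card = 0 := by omega
      rw [h0, h0']; simp
    · exact le_trans (Nat.descFactorial_le_pow n _) (Nat.pow_le_pow_right hn hcard)
  have h2 : (n.descFactorial (vset (inducedSlots E₀ X)).card : ℝ) ≤ (n : ℝ) ^ X.card := by
    exact_mod_cast h2N
  calc (1 : ℝ) ≤ 2 * (n.descFactorial (vset (inducedSlots E₀ X)).card : ℝ)
        * p ^ (inducedSlots E₀ X).card := h1
    _ ≤ 2 * (n : ℝ) ^ X.card * p ^ (inducedSlots E₀ X).card := by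
        apply mul_le_mul_of_nonneg_right _ hpp
        linarith

/-- **Rigidity of induced sub-hosts of non-negative excess.**  Let `X` be a set of at least two
vertices with `n^{|X|} p^{e(X)} ≤ 1`.  Then every permutation of `Fin n` that maps `X` into `X` and
every host slot inside `X` to a host slot is the identity on `X`. -/
theorem rigid_induced_of_stab {n : ℕ} (hn : 2 ≤ n) (E₀ : Finset (EdgeSlot n)) (p : ℝ)
    (hp0 : 0 ≤ p)
    (hstab : ∀ A ⊆ E₀, (((Finset.univ.filter (fun σ : Equiv.Perm (Fin n) =>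
        A.map (slotPerm σ).toEmbedding = A)).card : ℕ) : ℝ)
          ≤ 2 * (n.factorial : ℝ) * p ^ A.card)
    (X : Finset (Fin n)) (hX : 2 ≤ X.card)
    (hlev : (n : ℝ) ^ X.card * p ^ (inducedSlots E₀ X).card ≤ 1)
    (σ : Equiv.Perm (Fin n)) (hσX : ∀ x ∈ X, σ x ∈ X)
    (hσE : ∀ s ∈ inducedSlots E₀ X, slotPerm σ s ∈ E₀) :
    ∀ x ∈ X, σ x = x := by
  classical
  set A := inducedSlots E₀ X with hAdef
  set V := vset A with hVdef
  have hAE : A ⊆ E₀ := inducedSlots_subset E₀ X
  have hVX : V ⊆ X := vset_inducedSlots_subset E₀ X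
  have hpp : (0 : ℝ) ≤ p ^ A.card := pow_nonneg hp0 _
  have hnpos : (0 : ℝ) < (n : ℝ) := by exact_mod_cast (by omega : 0 < n)
  have hn2 : (2 : ℝ) ≤ (n : ℝ) := by exact_mod_cast hn
  -- `σ` stabilises `A`
  have hσA : A.map (slotPerm σ).toEmbedding = A := by
    apply map_slotPerm_eq_of_forall_mem
    intro s hs
    rw [hAdef, mem_inducedSlots]
    refine ⟨hσE s hs, ?_⟩
    intro v hv
    rw [slotPerm_val, Sym2.mem_map] at hv
    obtain ⟨u, hu, rfl⟩ := hv
    exact hσX u (((mem_inducedSlots E₀ X s).1 hs).2 u hu)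
  -- density
  have hdens := dens_of_stab E₀ p hp0 hstab A hAE
  have hdle : (n.descFactorial V.card : ℝ) ≤ (n : ℝ) ^ V.card := by
    exact_mod_cast Nat.descFactorial_le_pow n V.card
  have hsplit : X.card = V.card + (X \ V).card := by
    have := Finset.card_sdiff_add_card_eq_card hVX
    omega
  -- at most one vertex of `X` is not covered by `A`
  have hj : (X \ V).card ≤ 1 := by
    by_contra hgt
    push Not at hgt
    have h1 : (1 : ℝ) ≤ 2 * (n : ℝ) ^ V.card * p ^ A.card := by
      calc (1 : ℝ) ≤ 2 * (n.descFactorial V.card : ℝ) * p ^ A.card := hdens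
        _ ≤ 2 * (n : ℝ) ^ V.card * p ^ A.card := by
            apply mul_le_mul_of_nonneg_right _ hpp
            linarith
    have h2 : (n : ℝ) ^ V.card * p ^ A.card * (n : ℝ) ^ (X \ V).card ≤ 1 := by
      calc (n : ℝ) ^ V.card * p ^ A.card * (n : ℝ) ^ (X \ V).card
          = (n : ℝ) ^ X.card * p ^ A.card := by rw [hsplit, pow_add]; ring
        _ ≤ 1 := hlev
    have h3 : (4 : ℝ) ≤ (n : ℝ) ^ (X \ V).card := by
      calc (4 : ℝ) = 2 ^ 2 := by norm_num
        _ ≤ (n : ℝ) ^ 2 := pow_le_pow_left₀ (by norm_num) hn2 2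
        _ ≤ (n : ℝ) ^ (X \ V).card := pow_le_pow_right₀ (by linarith) hgt
    have h4 : (0 : ℝ) ≤ (n : ℝ) ^ V.card * p ^ A.card := by positivity
    nlinarith [h1, h2, h3, h4]
  -- `(n)_{v(A)} p^{|A|} < 1`
  have hlt : (n.descFactorial V.card : ℝ) * p ^ A.card < 1 := by
    rcases Nat.eq_zero_or_pos (X \ V).card with h0 | h1
    · -- `V = X`, at least two vertices
      have hVc : 2 ≤ V.card := by omega
      have hstrict : (n.descFactorial V.card : ℝ) < (n : ℝ) ^ V.card := by
        exact_mod_cast Nat.descFactorial_lt_pow (by omega : n ≠ 0) hVc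
      rcases eq_or_lt_of_le hpp with hz | hpos
      · rw [← hz, mul_zero]; exact one_pos
      · calc (n.descFactorial V.card : ℝ) * p ^ A.card
            < (n : ℝ) ^ V.card * p ^ A.card := mul_lt_mul_of_pos_right hstrict hpos
          _ = (n : ℝ) ^ X.card * p ^ A.card := by rw [hsplit, h0, add_zero]
          _ ≤ 1 := hlev
    · -- exactly one uncovered vertex
      have hone : (X \ V).card = 1 := by omega
      have h2 : (n : ℝ) ^ V.card * p ^ A.card * (n : ℝ) ≤ 1 := by
        calc (n : ℝ) ^ V.card * p ^ A.card * (n : ℝ)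
            = (n : ℝ) ^ X.card * p ^ A.card := by rw [hsplit, hone, pow_add, pow_one]; ring
          _ ≤ 1 := hlev
      have h4 : (0 : ℝ) ≤ (n : ℝ) ^ V.card * p ^ A.card := by positivity
      have h5 : (n.descFactorial V.card : ℝ) * p ^ A.card ≤ (n : ℝ) ^ V.card * p ^ A.card :=
        mul_le_mul_of_nonneg_right hdle hpp
      nlinarith [h2, h4, h5, hn2]
  have hfixV := rigid_of_stab E₀ p hp0 hstab A hAE hlt σ hσA
  intro x hx
  by_cases hxV : x ∈ V
  · exact hfixV x hxV
  · -- the single uncovered vertex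
    have hσxV : σ x ∉ V := by
      intro h
      have h1 : σ (σ x) = σ x := hfixV (σ x) h
      have h2 : σ x = x := σ.injective h1
      rw [h2] at h
      exact hxV h
    have hx1 : x ∈ X \ V := Finset.mem_sdiff.2 ⟨hx, hxV⟩
    have hx2 : σ x ∈ X \ V := Finset.mem_sdiff.2 ⟨hσX x hx, hσxV⟩
    exact Finset.card_le_one.1 hj _ hx2 _ hx1

end Crest.Agent.Helper13.S0076
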